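import Crest.Agent.R264.Cx.Gen

/-! The cell structure at a generic point of a codimension two algebraic set, one direction at a time. -/

set_option autoImplicit false
set_option linter.unusedSectionVars false
open Set Filter Topology MvPolynomial

namespace Crest.Agent.R264

variable {σ τ : Type} [Fintype σ] [Fintype τ] [DecidableEq σ] [DecidableEq τ] {𝕜 : Subfield ℝ}

/-- `{R = 0}` is near `x` a smooth hypersurface transversal to `v` -/
def Trv (R : MvPolynomial σ 𝕜) (v x : σ → ℝ) : Prop :=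
  ∃ r' : (σ → ℝ) → ℝ, AnalyticAt ℝ r' x ∧ fderiv ℝ r' x v ≠ 0 ∧ ∀ᶠ x' in 𝓝 x, (aeval x' R = 0 ↔ r' x' = 0)

/-- the cell structure in the direction `v` -/
def Dir (R : MvPolynomial σ 𝕜) (C : Set (σ → ℝ)) (q v w : σ → ℝ) : Prop :=
  ∃ y P : MvPolynomial σ 𝕜, aeval q y = 0 ∧ (∀ x (s : ℝ), aeval (x + s • v) y = aeval x y) ∧ aeval q P ≠ 0 ∧
    ∀ x, aeval x P ≠ 0 → fderiv ℝ (fun x => aeval x y) x w ≠ 0 ∧
      (aeval x R = 0 → (aeval x y = 0 → x ∈ ZS (IS 𝕜 {q})) ∧ (aeval x y ≠ 0 → x ∉ C ∧ Trv R v x))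

/-- `IS {q}` is a minimal prime of `(R, y)` (for real points) -/
theorem min_prime [Countable 𝕜] {R y : MvPolynomial σ 𝕜} (hy : y ≠ 0) {q v : σ → ℝ}
    (hi : ∀ x (s : ℝ), aeval (x + s • v) y = aeval x y) {s : ℝ} (hs : aeval (q + s • v) R ≠ 0)
    (hd : Fintype.card σ ≤ td 𝕜 q + 2) :
    ∃ P : MvPolynomial σ 𝕜, aeval q P ≠ 0 ∧ ∀ x, aeval x P ≠ 0 → aeval x R = 0 → aeval x y = 0 →
      x ∈ ZS (IS 𝕜 {q}) := by
  obtain ⟨Q, hQ, hQY, hSQ, -⟩ := generic_points (𝕜 := 𝕜) (S := {x : σ → ℝ | aeval x R = 0 ∧ aeval x y = 0})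
    Subset.rfl (fun z _ => Eventually.of_forall fun x hx => ⟨hx R fun w hw => hw.1, hx y fun w hw => hw.2⟩)
  have key : ∀ q' ∈ Q, ∃ f : MvPolynomial σ 𝕜, aeval q f ≠ 0 ∧ ∀ x ∈ ZS (IS 𝕜 {q'}), aeval x f ≠ 0 →
      x ∈ ZS (IS 𝕜 {q}) := by
    intro q' hq'
    by_cases hqq : q ∈ ZS (IS 𝕜 {q'})
    · have htd : td 𝕜 q' ≤ td 𝕜 q := by
        by_contra hcon
        obtain ⟨R₀, -, h1, h2, h3, -⟩ := hyp_generic hy (hQY hq').2 (by omega)
        obtain ⟨w, hw⟩ := h3 R (hQY hq').1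
        apply hs
        rw [hw, map_mul, inv_of_dvd hy hi h2, mem_spec.1 hqq R₀ h1, zero_mul]
      refine ⟨1, by simp, fun x hx _ => mem_spec.2 fun g hg => mem_spec.1 hx g ?_⟩
      by_contra hg'
      have := td_lt_of_spec hqq hg' hg
      omega
    · rw [mem_spec] at hqq
      push Not at hqq
      obtain ⟨f, hf, hf'⟩ := hqq
      exact ⟨f, hf', fun x hx hx' => absurd (mem_spec.1 hx f hf) hx'⟩
  choose! f hf hf' using key
  refine ⟨∏ q' ∈ hQ.toFinset, f q', ?_, fun x hx h1 h2 => ?_⟩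
  · rw [map_prod]
    exact Finset.prod_ne_zero_iff.2 fun q' hq' => hf q' (by simpa using hq')
  · obtain ⟨q', hq', hx'⟩ := mem_iUnion₂.1 (hSQ ⟨h1, h2⟩)
    rw [map_prod] at hx
    exact hf' q' hq' x hx' (Finset.prod_ne_zero_iff.1 hx q' (hQ.mem_toFinset.2 hq'))

theorem card_ne (a : σ) : Fintype.card {j // j ≠ a} + 1 = Fintype.card σ := by
  rw [Fintype.card_subtype_compl, Fintype.card_subtype_eq]
  have : 0 < Fintype.card σ := Fintype.card_pos_iff.2 ⟨a⟩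
  omega

/-- a "discriminant" -/
theorem exists_disc [Countable 𝕜] {R : MvPolynomial σ 𝕜} (hR : R ≠ 0) {C : Set (σ → ℝ)} (hC : IsAlg 𝕜 C)
    (hd : ∀ z ∈ C, td 𝕜 z + 2 ≤ Fintype.card σ) (a : σ) :
    ∃ Δ : MvPolynomial {j // j ≠ a} 𝕜, Δ ≠ 0 ∧ ∀ z : σ → ℝ,
      (z ∈ C ∨ (aeval z R = 0 ∧ ¬ Trv R (Pi.single a 1) z)) → aeval (z ∘ Subtype.val) Δ = 0 := by
  refine vanish_proj (S := {z | z ∈ C ∨ (aeval z R = 0 ∧ ¬ Trv R (Pi.single a 1) z)}) (subset_univ _)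
    (fun _ _ => Eventually.of_forall fun _ _ => mem_univ _) Subtype.val fun q _ hi => ?_
  have h1 := card_le_td_comp hi
  have h2 := card_ne a
  have hq : q ∉ C := fun hq => by have := hd q hq; omega
  obtain ⟨f, hf, hfC⟩ := hC.exists_poly hq
  by_cases h0 : aeval q R = 0
  · obtain ⟨R₀, P₀, -, -, -, hP0, hder, hloc⟩ := hyp_generic hR h0 (by omega)
    refine ⟨f * (P₀ * pderiv a R₀), ?_, ?_⟩
    · rw [map_mul, map_mul]
      exact mul_ne_zero hf (mul_ne_zero hP0 (hder a hi))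
    · rintro z (hz | hz) -
      · rw [map_mul, hfC z hz, zero_mul]
      · by_contra hne
        rw [map_mul, map_mul] at hne
        refine hz.2 ⟨fun x => aeval x R₀, analytic_aeval R₀ z (mem_univ _), ?_, ?_⟩
        · rw [fderiv_aeval_single]
          exact right_ne_zero_of_mul (right_ne_zero_of_mul hne)
        · filter_upwards [eventually_aeval_ne (left_ne_zero_of_mul (right_ne_zero_of_mul hne))] with x hx
          exact (hloc x hx).1
  · refine ⟨f * R, by rw [map_mul]; exact mul_ne_zero hf h0, ?_⟩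
    rintro z (hz | hz) -
    · rw [map_mul, hfC z hz, zero_mul]
    · rw [map_mul, hz.1, mul_zero]

theorem card_ne_ne {a b : σ} (hab : a ≠ b) : Fintype.card {j // j ≠ a ∧ j ≠ b} + 2 = Fintype.card σ := by
  have h1 := card_ne a
  have h2 := card_ne (⟨b, hab.symm⟩ : {j // j ≠ a})
  have h3 : Fintype.card {j : {j // j ≠ a} // j ≠ ⟨b, hab.symm⟩} = Fintype.card {j // j ≠ a ∧ j ≠ b} :=
    Fintype.card_congr
      { toFun := fun j => ⟨j.1.1, j.1.2, fun h => j.2 (Subtype.ext h)⟩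
        invFun := fun j => ⟨⟨j.1, j.2.1⟩, fun h => j.2.2 (congrArg Subtype.val h)⟩
        left_inv := fun _ => rfl
        right_inv := fun _ => rfl }
  omega

theorem dir_coord [Countable 𝕜] {R : MvPolynomial σ 𝕜} {C : Set (σ → ℝ)} (hC : IsAlg 𝕜 C)
    (hd : ∀ z ∈ C, td 𝕜 z + 2 ≤ Fintype.card σ) {q : σ → ℝ} (hq : q ∈ C) {a b : σ} (hab : a ≠ b)
    (hB : AlgebraicIndependent 𝕜 fun j : {j // j ≠ a ∧ j ≠ b} => q j) {s : ℝ}
    (hs : aeval (q + s • (Pi.single a 1 : σ → ℝ)) R ≠ 0) : Dir R C q (Pi.single a 1) (Pi.single b 1) := by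
  have hR : R ≠ 0 := by rintro rfl; simp at hs
  obtain ⟨Δ, hΔ, hΔz⟩ := exists_disc hR hC hd a
  have h1 := card_ne a
  have h2 := card_ne_ne hab
  have h3 : Fintype.card {j // j ≠ a ∧ j ≠ b} ≤ td 𝕜 (q ∘ (Subtype.val : {j // j ≠ a} → σ)) :=
    card_le_td_comp (e := fun j : {j // j ≠ a ∧ j ≠ b} => (⟨j.1, j.2.1⟩ : {j // j ≠ a})) hB
  obtain ⟨y₀, P₁, hy0, hy1, -, hP1, hder, hloc⟩ := hyp_generic hΔ (hΔz q (Or.inl hq)) (by omega)
  have hd0 := hder ⟨b, hab.symm⟩ (hB.comp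
    (fun j : {j : {j // j ≠ a} // j ≠ ⟨b, hab.symm⟩} => (⟨j.1.1, j.1.2, fun h => j.2 (Subtype.ext h)⟩ :
      {j // j ≠ a ∧ j ≠ b})) fun j j' h => Subtype.ext (Subtype.ext (Subtype.ext_iff.1 h :)))
  have hi : ∀ (x : σ → ℝ) (s : ℝ), aeval (x + s • (Pi.single a 1 : σ → ℝ)) (rename Subtype.val y₀) =
      aeval x (rename Subtype.val y₀) := by
    intro x s
    rw [aeval_rename, aeval_rename]
    congr 2
    funext j
    simp [j.2]
  have hy : rename (Subtype.val : {j // j ≠ a} → σ) y₀ ≠ 0 := by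
    rw [Ne, ← map_zero (rename Subtype.val), (rename_injective _ Subtype.val_injective).eq_iff]
    rintro rfl
    exact hΔ (zero_dvd_iff.1 hy1)
  obtain ⟨P₂, hP2, hmin⟩ := min_prime hy hi hs
    (by have := td_comp_le (𝕜 := 𝕜) q (Subtype.val : {j // j ≠ a} → σ); omega)
  refine ⟨rename Subtype.val y₀, rename Subtype.val (P₁ * pderiv ⟨b, hab.symm⟩ y₀) * P₂,
    by rw [aeval_rename]; exact hy0, hi, ?_, fun x hx => ?_⟩
  · rw [map_mul, aeval_rename, map_mul]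
    exact mul_ne_zero (mul_ne_zero hP1 hd0) hP2
  rw [map_mul, aeval_rename, map_mul] at hx
  refine ⟨?_, fun h0 => ⟨hmin x (right_ne_zero_of_mul hx) h0, fun hyx => ?_⟩⟩
  · rw [fderiv_aeval_single]
    have := pderiv_rename (Subtype.val_injective (p := fun j => j ≠ a)) ⟨b, hab.symm⟩ y₀
    simp only at this
    rw [this, aeval_rename]
    exact right_ne_zero_of_mul (left_ne_zero_of_mul hx)
  · rw [aeval_rename] at hyx
    have hΔx : aeval (x ∘ Subtype.val) Δ ≠ 0 :=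
      fun h => hyx ((hloc _ (left_ne_zero_of_mul (left_ne_zero_of_mul hx))).1.1 h)
    refine ⟨fun h => hΔx (hΔz x (Or.inl h)), ?_⟩
    by_contra h
    exact hΔx (hΔz x (Or.inr ⟨h0, h⟩))

theorem fderiv_comp_symm (L : (σ → ℝ) ≃L[ℝ] (σ → ℝ)) (f : (σ → ℝ) → ℝ) (x v : σ → ℝ) :
    fderiv ℝ (fun x => f (L.symm x)) x (L v) = fderiv ℝ f (L.symm x) v := by
  have := L.symm.comp_right_fderiv (f := f) (x := x)
  rw [show (fun x => f (L.symm x)) = f ∘ L.symm from rfl, this]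
  simp

/-- rational linear change of coordinates -/
theorem dir_lin [Countable 𝕜] (L : (σ → ℝ) ≃L[ℝ] (σ → ℝ)) (p p' : σ → MvPolynomial σ 𝕜)
    (hp : ∀ x j, L x j = aeval x (p j)) (hp' : ∀ x j, L.symm x j = aeval x (p' j))
    {R : MvPolynomial σ 𝕜} {C : Set (σ → ℝ)} (hC : IsAlg 𝕜 C)
    (hd : ∀ z ∈ C, td 𝕜 z + 2 ≤ Fintype.card σ) {q : σ → ℝ} (hq : q ∈ C) {a b : σ} (hab : a ≠ b)
    (hB : AlgebraicIndependent 𝕜 fun j : {j // j ≠ a ∧ j ≠ b} => L.symm q j) {s : ℝ}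
    (hs : aeval (q + s • L (Pi.single a 1)) R ≠ 0) : Dir R C q (L (Pi.single a 1)) (L (Pi.single b 1)) := by
  have hφ : ∀ x f, aeval x (bind₁ p f) = aeval (L x) f := fun x f => by
    rw [aeval_bind₁]; congr 2; funext j; exact (hp x j).symm
  have hψ : ∀ x f, aeval x (bind₁ p' f) = aeval (L.symm x) f := fun x f => by
    rw [aeval_bind₁]; congr 2; funext j; exact (hp' x j).symm
  have hC' : IsAlg 𝕜 (L ⁻¹' C) := by
    obtain ⟨J, rfl⟩ := hC
    refine ⟨bind₁ p '' J, ?_⟩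
    ext x
    simp [ZS, hφ]
  have hd' : ∀ z ∈ L ⁻¹' C, td 𝕜 z + 2 ≤ Fintype.card σ := by
    intro z hz
    have h1 := hd _ hz
    have h2 := td_poly_le (q := L z) p'
    rw [show (fun j => aeval (L z) (p' j)) = z from funext fun j => by rw [← hp', L.symm_apply_apply]] at h2
    omega
  obtain ⟨y, P, hy, hi, hP, hx⟩ := dir_coord (R := bind₁ p R) hC' hd' (q := L.symm q) (by simpa using hq) hab hB
    (s := s) (by rw [hφ]; simpa using hs)
  refine ⟨bind₁ p' y, bind₁ p' P, by rw [hψ]; exact hy, fun x s => ?_, by rw [hψ]; exact hP, fun x hxP => ?_⟩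
  · rw [hψ, hψ, map_add, map_smul, L.symm_apply_apply, hi]
  rw [hψ] at hxP
  obtain ⟨h1, h2⟩ := hx _ hxP
  refine ⟨?_, fun h0 => ?_⟩
  · simp only [hψ]
    rwa [fderiv_comp_symm L fun x => aeval x y]
  obtain ⟨h3, h4⟩ := h2 (by rw [hφ, L.apply_symm_apply]; exact h0)
  rw [hψ]
  refine ⟨fun h => mem_spec.2 fun f hf => ?_, fun h => ?_⟩
  · have := mem_spec.1 (h3 h) (bind₁ p f) (by rw [hφ, L.apply_symm_apply]; exact hf)
    rwa [hφ, L.apply_symm_apply] at this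
  · obtain ⟨h5, r, h6, h7, h8⟩ := h4 h
    refine ⟨by simpa using h5, fun x => r (L.symm x),
      h6.comp ((L.symm : (σ → ℝ) →L[ℝ] (σ → ℝ)).analyticAt x), by rwa [fderiv_comp_symm], ?_⟩
    filter_upwards [L.symm.continuous.continuousAt.eventually h8] with x' hx'
    rwa [hφ, L.apply_symm_apply] at hx'

theorem dir_shear [Countable 𝕜] {R : MvPolynomial σ 𝕜} {C : Set (σ → ℝ)} (hC : IsAlg 𝕜 C)
    (hd : ∀ z ∈ C, td 𝕜 z + 2 ≤ Fintype.card σ) {q : σ → ℝ} (hq : q ∈ C) {a b : σ} (hab : a ≠ b)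
    (hB : AlgebraicIndependent 𝕜 fun j : {j // j ≠ a ∧ j ≠ b} => q j) (l : 𝕜) {s : ℝ}
    (hs : aeval (q + s • (Pi.single a 1 + (l : ℝ) • Pi.single b 1 : σ → ℝ)) R ≠ 0) :
    Dir R C q (Pi.single a 1 + (l : ℝ) • Pi.single b 1) (Pi.single b 1) := by
  let L : (σ → ℝ) ≃ₗ[ℝ] (σ → ℝ) :=
    { toFun := fun x => x + ((l : ℝ) * x a) • Pi.single b 1
      invFun := fun x => x - ((l : ℝ) * x a) • Pi.single b 1
      map_add' := fun x y => by simp only [Pi.add_apply, mul_add, add_smul]; abel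
      map_smul' := fun c x => by
        simp only [Pi.smul_apply, smul_eq_mul, RingHom.id_apply, smul_add, smul_smul, mul_left_comm]
      left_inv := fun x => by simp [hab]
      right_inv := fun x => by simp [hab] }
  have hL : ∀ x, L.toContinuousLinearEquiv x = x + ((l : ℝ) * x a) • Pi.single b 1 := fun _ => rfl
  have hL' : ∀ x, L.toContinuousLinearEquiv.symm x = x - ((l : ℝ) * x a) • Pi.single b 1 := fun _ => rfl
  have := dir_lin L.toContinuousLinearEquiv (fun j => X j + if j = b then MvPolynomial.C l * X a else 0)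
    (fun j => X j - if j = b then MvPolynomial.C l * X a else 0) (fun x j => ?_) (fun x j => ?_) hC hd hq hab ?_
    (R := R) (s := s) (by rw [hL]; simpa using hs)
  · simpa [hL, hab] using this
  · rw [hL]
    by_cases hj : j = b
    · subst hj; simp; exact Or.inl rfl
    · simp [hj]
  · rw [hL']
    by_cases hj : j = b
    · subst hj; simp; exact Or.inl rfl
    · simp [hj]
  · convert hB using 2 with j
    simp [hL', j.2.2]

theorem exists_plane_ne [Countable 𝕜] {R : MvPolynomial σ 𝕜} (hR : R ≠ 0) {q : σ → ℝ} {a b : σ} (hab : a ≠ b)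
    (hB : AlgebraicIndependent 𝕜 fun j : {j // j ≠ a ∧ j ≠ b} => q j) :
    ∃ s t : ℝ, s ≠ 0 ∧ aeval (q + s • (Pi.single a 1 + t • Pi.single b 1 : σ → ℝ)) R ≠ 0 := by
  have := countable_adj (𝕜 := 𝕜) q
  obtain ⟨y, hy⟩ := (dense_indep (σ := Fin 2) (𝕜 := adj 𝕜 q)).nonempty
  have h0 : y 0 ≠ q a := fun h => hy.transcendental 0
    (by rw [h]; exact isAlgebraic_algebraMap (⟨q a, mem_adj 𝕜 q a⟩ : adj 𝕜 q))
  let x : σ → ℝ := fun j => if j = a then y 0 else if j = b then y 1 else q j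
  have hx : Fintype.card σ ≤ td 𝕜 x := by
    have h1 := td_tower 𝕜 (fun j : {j // j ≠ a ∧ j ≠ b} => q j) y
    have h2 := card_le_td_of_indep hB
    have h3 := card_le_td_of_indep hy
    have h4 : adj 𝕜 (fun j : {j // j ≠ a ∧ j ≠ b} => q j) ≤ adj 𝕜 q :=
      Subfield.closure_mono (union_subset_union_right _ (range_comp_subset_range Subtype.val q))
    have h5 := td_mono_field h4 y
    have h6 := td_comp_le (𝕜 := 𝕜) x (Sum.elim (Subtype.val : {j // j ≠ a ∧ j ≠ b} → σ) ![a, b])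
    have h7 : x ∘ Sum.elim (Subtype.val : {j // j ≠ a ∧ j ≠ b} → σ) ![a, b] =
        Sum.elim (fun j : {j // j ≠ a ∧ j ≠ b} => q j) y := by
      funext j
      rcases j with j | j
      · simp [x, j.2.1, j.2.2]
      · fin_cases j <;> simp [x, hab.symm]
    have h8 := card_ne_ne hab
    rw [h7] at h6
    simp only [Fintype.card_fin] at h3
    omega
  refine ⟨y 0 - q a, (y 1 - q b) / (y 0 - q a), sub_ne_zero.2 h0, ?_⟩
  convert aeval_ne_of_td hx hR using 3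
  funext j
  have := sub_ne_zero.2 h0
  by_cases hj : j = a
  · subst hj; simp [x, hab]
  by_cases hj' : j = b
  · subst hj'; simp [x, hj]; field_simp; ring
  · simp [x, hj, hj']

theorem exists_dirs [Countable 𝕜] {R : MvPolynomial σ 𝕜} (hR : R ≠ 0) {q : σ → ℝ} {a b : σ} (hab : a ≠ b)
    (hB : AlgebraicIndependent 𝕜 fun j : {j // j ≠ a ∧ j ≠ b} => q j) :
    ∃ (l : Fin 2 → 𝕜) (s : ℝ), l 0 ≠ l 1 ∧
      ∀ i, aeval (q + s • (Pi.single a 1 + (l i : ℝ) • Pi.single b 1 : σ → ℝ)) R ≠ 0 := by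
  obtain ⟨s, t, -, h⟩ := exists_plane_ne hR hab hB
  have hc : Continuous fun t : ℝ => aeval (q + s • (Pi.single a 1 + t • Pi.single b 1 : σ → ℝ)) R :=
    (continuous_aeval R).comp (by fun_prop)
  obtain ⟨ε, hε, hb⟩ := Metric.eventually_nhds_iff.1 (hc.continuousAt.eventually_ne h)
  obtain ⟨l₀, h1, h2⟩ := exists_rat_btwn (show t < t + ε by linarith)
  obtain ⟨l₁, h3, h4⟩ := exists_rat_btwn h1
  refine ⟨![(l₀ : 𝕜), (l₁ : 𝕜)], s, ?_, fun i => ?_⟩
  · intro h5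
    have h6 : l₀ = l₁ := by simpa using h5
    rw [h6] at h4
    exact lt_irrefl _ h4
  · fin_cases i
    · refine hb ?_
      simp only [Fin.zero_eta, Matrix.cons_val_zero, SubfieldClass.coe_ratCast, Real.dist_eq]
      rw [abs_lt]; constructor <;> linarith
    · refine hb ?_
      simp only [Fin.mk_one, Matrix.cons_val_one, Matrix.cons_val_zero, SubfieldClass.coe_ratCast, Real.dist_eq]
      rw [abs_lt]; constructor <;> linarith

theorem exists_two_coords {q : σ → ℝ} (htd : td 𝕜 q + 2 = Fintype.card σ) :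
    ∃ a b : σ, a ≠ b ∧ AlgebraicIndependent 𝕜 fun j : {j // j ≠ a ∧ j ≠ b} => q j := by
  obtain ⟨B, -, -, hBc, hB, -⟩ := exists_basis 𝕜 q (empty_subset univ) algebraicIndependent_empty_type
    (fun j => isAlgebraic_algebraMap
      (⟨q j, Algebra.subset_adjoin (mem_image_of_mem q (mem_univ j))⟩ : Algebra.adjoin 𝕜 (q '' univ)))
  obtain ⟨a, b, hab, h⟩ := Finset.card_eq_two.1 (show Bᶜ.card = 2 by rw [Finset.card_compl]; omega)
  have hj : ∀ j : {j // j ≠ a ∧ j ≠ b}, j.1 ∈ B := by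
    intro j
    by_contra hc
    have : j.1 ∈ Bᶜ := Finset.mem_compl.2 hc
    rw [h] at this
    simp [j.2.1, j.2.2] at this
  exact ⟨a, b, hab, hB.comp (fun j : {j // j ≠ a ∧ j ≠ b} => (⟨j.1, hj j⟩ : B))
    fun j j' hjj => Subtype.ext (Subtype.ext_iff.1 hjj :)⟩

theorem fderiv_inv_zero {H : Type} [NormedAddCommGroup H] [NormedSpace ℝ H] {y : H → ℝ} {x v : H}
    (hy : DifferentiableAt ℝ y x) (hi : ∀ s : ℝ, y (x + s • v) = y x) : fderiv ℝ y x v = 0 := by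
  have h1 : HasDerivAt (fun s : ℝ => x + s • v) v 0 := by
    simpa using ((hasDerivAt_id (0 : ℝ)).smul_const v).const_add x
  have h2 : HasDerivAt (fun s : ℝ => y (x + s • v)) (fderiv ℝ y x v) 0 :=
    HasFDerivAt.comp_hasDerivAt_of_eq 0 hy.hasFDerivAt h1 (by simp)
  simp only [hi] at h2
  exact h2.unique (hasDerivAt_const _ _)

theorem cell_alg' [Countable 𝕜] {R : MvPolynomial σ 𝕜} (hR : R ≠ 0) {C : Set (σ → ℝ)} (hC : IsAlg 𝕜 C)
    (hd : ∀ z ∈ C, td 𝕜 z + 2 ≤ Fintype.card σ) {q : σ → ℝ} (hq : q ∈ C)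
    (htd : td 𝕜 q + 2 = Fintype.card σ) :
    ∃ (v : Fin 2 → σ → ℝ) (y : Fin 2 → MvPolynomial σ 𝕜) (P : MvPolynomial σ 𝕜), (∀ i, aeval q (y i) = 0) ∧
      (∀ i z (s : ℝ), aeval (z + s • v i) (y i) = aeval z (y i)) ∧ aeval q P ≠ 0 ∧
      ∀ z : σ → ℝ, aeval z P ≠ 0 →
        (∀ i j, i ≠ j → fderiv ℝ (fun x => aeval x (y i)) z (v j) ≠ 0) ∧
        (aeval z R = 0 → (aeval z (y 0) = 0 ↔ aeval z (y 1) = 0) ∧
          ∀ i, aeval z (y i) ≠ 0 → z ∉ C ∧ Trv R (v i) z) := by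
  obtain ⟨a, b, hab, hB⟩ := exists_two_coords htd
  obtain ⟨l, s, hl, hs⟩ := exists_dirs hR hab hB
  choose y P hy hi hP hx using fun i => dir_shear hC hd hq hab hB (l i) (hs i)
  refine ⟨fun i => Pi.single a 1 + (l i : ℝ) • Pi.single b 1, y, P 0 * P 1, hy, hi,
    by rw [map_mul]; exact mul_ne_zero (hP 0) (hP 1), fun z hz => ?_⟩
  rw [map_mul] at hz
  have hz' : ∀ i, aeval z (P i) ≠ 0 := Fin.forall_fin_two.2 ⟨left_ne_zero_of_mul hz, right_ne_zero_of_mul hz⟩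
  refine ⟨fun i j hij => ?_, fun h0 => ⟨⟨fun h => ?_, fun h => ?_⟩, fun i h => ((hx i z (hz' i)).2 h0).2 h⟩⟩
  · have h1 := fderiv_inv_zero (analytic_aeval (y i) z (mem_univ _)).differentiableAt (hi i z)
    have h2 : (Pi.single a 1 + (l j : ℝ) • Pi.single b 1 : σ → ℝ) =
        (Pi.single a 1 + (l i : ℝ) • Pi.single b 1) + ((l j : ℝ) - l i) • Pi.single b 1 := by
      rw [sub_smul]; abel
    have h3 : (l j : ℝ) - l i ≠ 0 := by
      rw [sub_ne_zero, Ne, Subtype.coe_inj]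
      fin_cases i <;> fin_cases j <;> simp_all [eq_comm]
    simp only
    rw [h2, map_add, h1, zero_add, map_smul, smul_eq_mul]
    exact mul_ne_zero h3 (hx i z (hz' i)).1
  · exact mem_spec.1 (((hx 0 z (hz' 0)).2 h0).1 h) _ (hy 1)
  · exact mem_spec.1 (((hx 1 z (hz' 1)).2 h0).1 h) _ (hy 0)

end Crest.Agent.R264
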