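import Crest.Agent.R264.Alg.GS

/-! Small tools about generic points, used in `Alg/Cx.lean`. -/

set_option autoImplicit false
set_option linter.unusedSectionVars false
open Set Filter Topology MvPolynomial

namespace Crest.Agent.R264

variable {σ τ : Type} [Fintype σ] [Fintype τ] [DecidableEq σ] [DecidableEq τ] {𝕜 : Subfield ℝ}

theorem indep_of_td {q : σ → ℝ} (h : Fintype.card σ ≤ td 𝕜 q) : AlgebraicIndependent 𝕜 q := by
  rw [algebraicIndependent_iff]
  intro f hf
  by_contra hne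
  exact aeval_ne_of_td h hne hf

theorem card_le_td_of_indep {q : σ → ℝ} (h : AlgebraicIndependent 𝕜 q) : Fintype.card σ ≤ td 𝕜 q := by
  simpa using card_le_td (𝕜 := 𝕜) (q := q) (S := Finset.univ) (h.comp _ Subtype.val_injective)

theorem card_le_td_comp {q : σ → ℝ} {e : τ → σ} (h : AlgebraicIndependent 𝕜 (q ∘ e)) : Fintype.card τ ≤ td 𝕜 q :=
  (card_le_td_of_indep h).trans (td_comp_le q e)

theorem mem_spec {q z : σ → ℝ} :
    z ∈ ZS (IS 𝕜 {q}) ↔ ∀ f : MvPolynomial σ 𝕜, aeval q f = 0 → aeval z f = 0 := by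
  simp [ZS, IS]

theorem spec_self (q : σ → ℝ) : q ∈ ZS (IS 𝕜 {q}) := mem_spec.2 fun _ h => h

theorem ZS_IS_mono {S T : Set (σ → ℝ)} (h : S ⊆ T) : ZS (IS 𝕜 S) ⊆ ZS (IS 𝕜 T) :=
  fun _ hz f hf => hz f fun q hq => hf q (h hq)

theorem continuous_aeval (f : MvPolynomial σ 𝕜) : Continuous fun q : σ → ℝ => aeval q f :=
  continuous_iff_continuousAt.2 fun q => (analytic_aeval f q (mem_univ _)).continuousAt

theorem eventually_aeval_ne {f : MvPolynomial σ 𝕜} {q : σ → ℝ} (h : aeval q f ≠ 0) :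
    ∀ᶠ x in 𝓝 q, aeval x f ≠ 0 :=
  (continuous_aeval f).continuousAt.eventually_ne h

theorem fderiv_aeval_single (f : MvPolynomial σ 𝕜) (q : σ → ℝ) (i : σ) :
    fderiv ℝ (fun q : σ → ℝ => aeval q f) q (Pi.single i 1) = aeval q (pderiv i f) := by
  rw [fderiv_aeval, Finset.sum_eq_single i] <;> simp +contextual

/-- a set none of whose generic points has an independent projection projects into a hypersurface -/
theorem vanish_proj [Countable 𝕜] {S Y : Set (σ → ℝ)} (hS : S ⊆ Y)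
    (hY : ∀ z ∈ Y, ∀ᶠ q in 𝓝 z, q ∈ ZS (IS 𝕜 Y) → q ∈ Y) (e : τ → σ)
    (h : ∀ q ∈ Y, AlgebraicIndependent 𝕜 (q ∘ e) → ∃ P : MvPolynomial σ 𝕜, aeval q P ≠ 0 ∧
      ∀ z ∈ S, z ∈ ZS (IS 𝕜 {q}) → aeval z P = 0) :
    ∃ Δ : MvPolynomial τ 𝕜, Δ ≠ 0 ∧ ∀ z ∈ S, aeval (z ∘ e) Δ = 0 := by
  obtain ⟨Q, hQ, hQY, hSQ, hgen⟩ := generic_points hS hY
  have key : ∀ q ∈ Q, ∃ u : MvPolynomial τ 𝕜, u ≠ 0 ∧ aeval (q ∘ e) u = 0 := by
    intro q hq
    by_contra hcon
    push Not at hcon
    have hi : AlgebraicIndependent 𝕜 (q ∘ e) := by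
      rw [algebraicIndependent_iff]
      intro f hf
      by_contra hne
      exact hcon f hne hf
    obtain ⟨P, hP, hPz⟩ := h q (hQY hq) hi
    obtain ⟨z, hz, hz', hz''⟩ := hgen q hq P hP
    exact hz'' (hPz z hz hz')
  choose! u hu hu0 using key
  refine ⟨∏ q ∈ hQ.toFinset, u q, Finset.prod_ne_zero_iff.2 fun q hq => hu q (by simpa using hq), fun z hz => ?_⟩
  obtain ⟨q, hq, hzq⟩ := mem_iUnion₂.1 (hSQ hz)
  rw [map_prod]
  refine Finset.prod_eq_zero (hQ.mem_toFinset.2 hq) ?_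
  have := mem_spec.1 hzq (rename e (u q)) (by rw [aeval_rename]; exact hu0 q hq)
  rwa [aeval_rename] at this

/-- Rolle: a function whose derivative along `v` does not vanish is locally injective on lines in the direction `v` -/
theorem inj_line {H : Type} [NormedAddCommGroup H] [NormedSpace ℝ H] [CompleteSpace H] {f : H → ℝ} {x₀ v : H}
    (hf : AnalyticAt ℝ f x₀) (hd : fderiv ℝ f x₀ v ≠ 0) :
    ∃ U ∈ 𝓝 x₀, ∀ x ∈ U, ∀ s : ℝ, x + s • v ∈ U → f (x + s • v) = f x → s = 0 := by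
  have h1 : ∀ᶠ x in 𝓝 x₀, fderiv ℝ f x v ≠ 0 := by
    have : ContinuousAt (fun x => fderiv ℝ f x v) x₀ := hf.fderiv.continuousAt.clm_apply continuousAt_const
    exact this.eventually_ne hd
  obtain ⟨ε, hε, hb⟩ := Metric.eventually_nhds_iff_ball.1 (h1.and hf.eventually_analyticAt)
  refine ⟨Metric.ball x₀ ε, Metric.ball_mem_nhds _ hε, fun x hx s hs hfx => ?_⟩
  by_contra hs0
  have hmem : ∀ t ∈ Icc (0 : ℝ) 1, x + (t * s) • v ∈ Metric.ball x₀ ε := by
    intro t ht
    have := (convex_ball x₀ ε).add_smul_sub_mem hx hs ht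
    simpa [mul_smul] using this
  have hder : ∀ t ∈ Icc (0 : ℝ) 1, HasDerivAt (fun t : ℝ => f (x + (t * s) • v))
      (fderiv ℝ f (x + (t * s) • v) (s • v)) t := by
    intro t ht
    have h2 : HasDerivAt (fun t : ℝ => x + (t * s) • v) (s • v) t := by
      simpa using (((hasDerivAt_id t).mul_const s).smul_const v).const_add x
    exact (hb _ (hmem t ht)).2.differentiableAt.hasFDerivAt.comp_hasDerivAt t h2
  obtain ⟨c, hc, hc0⟩ := exists_hasDerivAt_eq_zero (f := fun t : ℝ => f (x + (t * s) • v)) zero_lt_one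
    (fun t ht => (hder t ht).continuousAt.continuousWithinAt) (by simpa using hfx.symm)
    (fun t ht => hder t (Ioo_subset_Icc_self ht))
  rw [map_smul, smul_eq_mul] at hc0
  exact mul_ne_zero hs0 (hb _ (hmem c (Ioo_subset_Icc_self hc))).1 hc0

/-- a divisor of a nonzero polynomial which is invariant under translations along `v` is invariant as well -/
theorem inv_of_dvd [Countable 𝕜] {y u : MvPolynomial σ 𝕜} (hy : y ≠ 0) {v : σ → ℝ}
    (hi : ∀ x (s : ℝ), aeval (x + s • v) y = aeval x y) (hu : u ∣ y) (x : σ → ℝ) (s : ℝ) :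
    aeval (x + s • v) u = aeval x u := by
  obtain ⟨w, rfl⟩ := hu
  have hev : ∀ (x : σ → ℝ) (t : ℝ) (f : MvPolynomial σ 𝕜), Polynomial.eval t
      (aeval (fun i => Polynomial.C (x i) + Polynomial.C (v i) * Polynomial.X : σ → Polynomial ℝ) f) =
        aeval (x + t • v) f := by
    intro x t f
    induction f using MvPolynomial.induction_on with
    | C a => simp [Polynomial.algebraMap_apply]
    | add p q hp hq => simp [hp, hq]
    | mul_X p i hp =>
      rw [map_mul, map_mul, Polynomial.eval_mul, hp, aeval_X, aeval_X]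
      simp [mul_comm t]
  have hD : Dense {x : σ → ℝ | aeval x (u * w) ≠ 0} :=
    (dense_indep (𝕜 := 𝕜)).mono fun x hx h0 => hy (algebraicIndependent_iff.1 hx _ h0)
  have hc : Continuous fun x : σ → ℝ => aeval (x + s • v) u :=
    (continuous_aeval u).comp (continuous_id.add continuous_const)
  refine congrFun (Continuous.ext_on hD hc (continuous_aeval u) fun x hx => ?_) x
  set φ := aeval (R := 𝕜) (fun i => Polynomial.C (x i) + Polynomial.C (v i) * Polynomial.X : σ → Polynomial ℝ)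
    with hφ
  have h1 : φ u * φ w = Polynomial.C (aeval x (u * w)) := by
    rw [← map_mul]
    refine Polynomial.funext fun t => ?_
    rw [hev, hi, Polynomial.eval_C]
  have h2 : IsUnit (φ u) := isUnit_of_mul_isUnit_left (y := φ w) (by
    rw [h1]; exact Polynomial.isUnit_C.2 (isUnit_iff_ne_zero.2 hx))
  obtain ⟨r, -, hr⟩ := Polynomial.isUnit_iff.1 h2
  have h3 := hev x s u
  have h4 := hev x 0 u
  rw [← hφ, ← hr, Polynomial.eval_C] at h3 h4
  simp only [zero_smul, add_zero] at h4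
  exact h3.symm.trans h4

theorem td_poly_le {q : σ → ℝ} (p : τ → MvPolynomial σ 𝕜) : td 𝕜 (fun j => aeval q (p j)) ≤ td 𝕜 q := by
  refine td_le_of_alg fun j => ?_
  have : aeval q (p j) ∈ Algebra.adjoin 𝕜 (range q) := by
    rw [Algebra.adjoin_range_eq_range_aeval]; exact ⟨p j, rfl⟩
  exact isAlgebraic_algebraMap (⟨_, this⟩ : Algebra.adjoin 𝕜 (range q))

end Crest.Agent.R264
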